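import Vale.Agent.Lib.P154Anti.Cert.D13.Table0
import Vale.Agent.Lib.P154Anti.Cert.D13.Masses

namespace Vale.Agent.Lib.P154Anti.Cert.D13

open Vale.Agent.Lib.P154Anti

theorem L40 : lvlOK3 cfg par tblI0 tblE0 vE vc Q40 17591041649080 Q41 = true := by decide +kernel

end Vale.Agent.Lib.P154Anti.Cert.D13
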